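import Vale.Agent.P225.Main

namespace Vale.Agent.Results.P225.Disproof

open Vale.Agent.P225

/-- A complete metric on `ℝ⁴` with nonnegative Ricci curvature and more independent harmonic
functions of growth at most `k` than Euclidean space has. -/
theorem result : ∃ (G : RMetric 4) (k N : ℕ) (u : Fin N → E 4 → ℝ), 1 ≤ k ∧ G.Complete ∧
    G.RicNonneg ∧ (4 + k - 1).choose k + (4 + k - 2).choose (k - 1) < N ∧
    LinearIndependent ℝ u ∧ ∀ i, G.PolyHarm k (u i) :=
  Vale.Agent.P225.main

end Vale.Agent.Results.P225.Disproof
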